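import Mathlib

/-!
P331, row D3 of helper489's plan (#11439): the two final numerical estimates.
-/

namespace Vale.Agent.P331.H823

open Real

/-- Choice of `m` about `8 L / log L`. -/
theorem key {L : ℝ} (hL : 1 < L) : ∃ m : ℕ, 16 ≤ m ∧ Real.exp (4 * L) ≤ (m : ℝ) ^ m ∧
    (1 / 36000 : ℝ) * (Real.log L / L) ≤ 1 / (4000 * m) := by
  have hL0 : 0 < L := by linarith
  set y := Real.log L with hy
  have hy0 : 0 < y := Real.log_pos hL
  have half : ∀ t : ℝ, 0 < t → Real.log t ≤ t / 2 := by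
    intro t ht
    have h1 : Real.log t = Real.log (t / 2) + Real.log 2 := by
      rw [← Real.log_mul (by positivity) (by norm_num)]
      congr 1; ring
    have h2 : Real.log (t / 2) ≤ t / 2 - 1 := Real.log_le_sub_one_of_pos (by positivity)
    have h3 : Real.log 2 < 0.6931471808 := Real.log_two_lt_d9
    rw [h1]; linarith
  have hyL : y ≤ L / 2 := half L hL0
  have hyy : Real.log y ≤ y / 2 := half y hy0
  have hLy : 2 ≤ L / y := by
    rw [le_div_iff₀ hy0]; linarith
  set m : ℕ := ⌈8 * (L / y)⌉₊ with hm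
  have hm1 : 8 * (L / y) ≤ (m : ℝ) := Nat.le_ceil _
  have hm2 : (m : ℝ) < 8 * (L / y) + 1 := Nat.ceil_lt_add_one (by positivity)
  have hm16 : (16 : ℝ) ≤ (m : ℝ) := by linarith
  have hm0 : (0 : ℝ) < (m : ℝ) := by linarith
  refine ⟨m, by exact_mod_cast hm16, ?_, ?_⟩
  · have hlogm : y / 2 ≤ Real.log m := by
      have h1 : Real.log (8 * (L / y)) ≤ Real.log m := Real.log_le_log (by positivity) hm1
      have h2 : Real.log (8 * (L / y)) = Real.log 8 + (Real.log L - Real.log y) := by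
        rw [Real.log_mul (by norm_num) (by positivity), Real.log_div (by positivity) (by positivity)]
      have h3 : 0 ≤ Real.log 8 := Real.log_nonneg (by norm_num)
      rw [← hy] at h2
      linarith
    have hmul : 4 * L ≤ (m : ℝ) * Real.log m := by
      calc 4 * L = 8 * (L / y) * (y / 2) := by field_simp; ring
        _ ≤ (m : ℝ) * Real.log m := by
            apply mul_le_mul hm1 hlogm (by positivity) hm0.le
    calc Real.exp (4 * L) ≤ Real.exp ((m : ℝ) * Real.log m) := Real.exp_le_exp.2 hmul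
      _ = (m : ℝ) ^ m := by
          rw [← Real.log_pow, Real.exp_log (by positivity)]
  · have h9 : (m : ℝ) ≤ 9 * (L / y) := by linarith
    have h10 : (1 / 36000 : ℝ) * (y / L) = 1 / (4000 * (9 * (L / y))) := by
      field_simp
      norm_num
    rw [h10]
    apply one_div_le_one_div_of_le (by positivity)
    linarith

theorem num_final : ∃ c : ℝ, 0 < c ∧ ∀ r : ℝ, 16 ≤ r → ∃ m : ℕ, 16 ≤ m ∧ r ≤ 2 ^ (m ^ m) ∧
    c * (Real.log (Real.log (Real.log r)) / Real.log (Real.log r)) ≤ 1 / (4000 * m) := by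
  refine ⟨1 / 36000, by norm_num, fun r hr => ?_⟩
  have h2 : (0.6931471803 : ℝ) < Real.log 2 := Real.log_two_gt_d9
  have hlr : (2.77 : ℝ) ≤ Real.log r := by
    have h1 : Real.log 16 ≤ Real.log r := Real.log_le_log (by norm_num) hr
    have h3 : Real.log 16 = 4 * Real.log 2 := by
      rw [show (16 : ℝ) = 2 ^ 4 by norm_num, Real.log_pow]; norm_num
    linarith
  have he : Real.exp 1 < 2.7182818286 := Real.exp_one_lt_d9
  have hL : 1 < Real.log (Real.log r) := by
    rw [Real.lt_log_iff_exp_lt (by linarith)]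
    linarith
  obtain ⟨m, hm, hm1, hm2⟩ := key hL
  refine ⟨m, hm, ?_, hm2⟩
  have hr0 : 0 < r := by linarith
  have hlr0 : 0 < Real.log r := by linarith
  have h4 : Real.exp (4 * Real.log (Real.log r)) = (Real.log r) ^ 4 := by
    rw [show (4 : ℝ) * Real.log (Real.log r) = ((4 : ℕ) : ℝ) * Real.log (Real.log r) by norm_num,
      ← Real.log_pow, Real.exp_log (by positivity)]
  rw [h4] at hm1
  have h5 : Real.log r ≤ (Real.log r) ^ 4 * Real.log 2 := by
    have h6 : (2 : ℝ) ≤ (Real.log r) ^ 3 := by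
      calc (2 : ℝ) ≤ (2.77 : ℝ) ^ 3 := by norm_num
        _ ≤ (Real.log r) ^ 3 := by gcongr
    have h7 : (1 : ℝ) ≤ (Real.log r) ^ 3 * Real.log 2 := by
      nlinarith
    calc Real.log r = Real.log r * 1 := by ring
      _ ≤ Real.log r * ((Real.log r) ^ 3 * Real.log 2) := by gcongr
      _ = (Real.log r) ^ 4 * Real.log 2 := by ring
  have h8 : Real.log r ≤ ((m ^ m : ℕ) : ℝ) * Real.log 2 := by
    push_cast
    refine h5.trans ?_
    have : (0 : ℝ) ≤ Real.log 2 := by linarith
    gcongr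
  calc r = Real.exp (Real.log r) := (Real.exp_log hr0).symm
    _ ≤ Real.exp (((m ^ m : ℕ) : ℝ) * Real.log 2) := Real.exp_le_exp.2 h8
    _ = 2 ^ (m ^ m) := by rw [← Real.log_pow, Real.exp_log (by positivity)]

theorem num_final' : ∃ c : ℝ, 0 < c ∧ ∀ L : ℝ, 3 ≤ L → ∃ m : ℕ, 16 ≤ m ∧ L ≤ m ^ m ∧
    c * (Real.log (Real.log L) / Real.log L) ≤ 1 / (4000 * m) := by
  refine ⟨1 / 36000, by norm_num, fun L hL => ?_⟩
  have he : Real.exp 1 < 2.7182818286 := Real.exp_one_lt_d9
  have hL0 : 0 < L := by linarith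
  have hl : 1 < Real.log L := by
    rw [Real.lt_log_iff_exp_lt hL0]
    linarith
  obtain ⟨m, hm, hm1, hm2⟩ := key hl
  refine ⟨m, hm, ?_, hm2⟩
  refine le_trans ?_ hm1
  calc L = Real.exp (Real.log L) := (Real.exp_log hL0).symm
    _ ≤ Real.exp (4 * Real.log L) := Real.exp_le_exp.2 (by linarith)

end Vale.Agent.P331.H823
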